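import Mathlib
import Vale.Agent.Lib.P075.Defs
import Vale.Agent.Lib.P075.Cyclic
import Vale.Agent.Lib.P075.OneT

/-!
# P075: the dyadic triangular Hilbert form is uniformly bounded at `(3,3,3)` as soon as ONE of
the three functions is an elementary tensor (step functions on the unit dyadic grid).

The bound is uniform in the number of scales, in the signs/coefficients `ε`, and in the size `n`
of the grid; the other two functions are arbitrary.  The proof writes the form as a pairing of a
vector-valued dyadic martingale transform, bounds it by a stopping-time (sparse) argument and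
Doob's maximal inequality, and removes the shear by Minkowski's inequality.
-/

namespace Vale.Agent.Results.P075.OneTensor

open Vale.Agent.Lib.P075

theorem result (n : ℕ) (S : Finset ℕ) (ε : ℕ → ℝ)
    (hS : ∀ k ∈ S, 1 ≤ k) (hε : ∀ k ∈ S, |ε k| ≤ 1) (F0 F1 F2 : ℕ → ℕ → ℝ)
    (h : IsTensorOn n F0 ∨ IsTensorOn n F1 ∨ IsTensorOn n F2) :
    |dyadicForm n S ε F0 F1 F2| ^ 3 ≤
      2038431744 * (normCube n F0 * normCube n F1 * normCube n F2) := by
  rcases h with h0 | h1 | h2
  · exact form_bound_one_tensor n S ε hS hε F0 F1 F2 h0
  · rw [dyadicForm_cyc]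
    have h := form_bound_one_tensor n S ε hS hε F1 F2 F0 h1
    linarith
  · rw [dyadicForm_cyc, dyadicForm_cyc]
    have h := form_bound_one_tensor n S ε hS hε F2 F0 F1 h2
    linarith

end Vale.Agent.Results.P075.OneTensor
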