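import Mathlib
import Vale.Agent.Lib.P075.Defs
import Vale.Agent.Lib.P075.Cyclic

/-!
# P075: the dyadic triangular Hilbert form is uniformly bounded when two of the three
functions are elementary tensors (step functions on the unit dyadic grid), with constant `2`.
-/

namespace Vale.Agent.Results.P075.TwoTensors

open Vale.Agent.Lib.P075

theorem result (n : ℕ) (S : Finset ℕ) (ε : ℕ → ℝ)
    (hS : ∀ k ∈ S, 1 ≤ k) (hε : ∀ k ∈ S, |ε k| ≤ 1) (F0 F1 F2 : ℕ → ℕ → ℝ)
    (h : (IsTensorOn n F0 ∧ IsTensorOn n F1) ∨ (IsTensorOn n F1 ∧ IsTensorOn n F2) ∨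
      (IsTensorOn n F2 ∧ IsTensorOn n F0)) :
    |dyadicForm n S ε F0 F1 F2| ^ 3 ≤
      8 * (normCube n F0 * normCube n F1 * normCube n F2) := by
  rcases h with ⟨h0, h1⟩ | ⟨h1, h2⟩ | ⟨h2, h0⟩
  · exact form_bound_two_tensors n S ε hS hε F0 F1 F2 h0 h1
  · rw [dyadicForm_cyc]
    have h := form_bound_two_tensors n S ε hS hε F1 F2 F0 h1 h2
    linarith
  · rw [dyadicForm_cyc, dyadicForm_cyc]
    have h := form_bound_two_tensors n S ε hS hε F2 F0 F1 h2 h0
    linarith

end Vale.Agent.Results.P075.TwoTensors
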